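import Vale.Agent.P268H.Core

namespace Vale.Agent.Results.P268.Holder

open Filter Topology Asymptotics Vale.Agent.P268H

theorem result (N : ℕ) (f g : (Fin N → ℂ) → ℂ) (hf : AnalyticAt ℂ f 0) (hg : AnalyticAt ℂ g 0)
    (hf0 : ¬ f =ᶠ[𝓝 0] 0) (hg0 : ¬ g =ᶠ[𝓝 0] 0)
    (φ : OpenPartialHomeomorph (Fin N → ℂ) (Fin N → ℂ)) (h0 : 0 ∈ φ.source) (hφ0 : φ 0 = 0)
    (α β a b : ℝ) (ha : 0 ≤ a) (hb : 0 ≤ b)
    (h1 : (fun x => φ x) =O[𝓝 0] fun x => ‖x‖ ^ α)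
    (h2 : (fun y => φ.symm y) =O[𝓝 0] fun y => ‖y‖ ^ β)
    (h3 : f =O[𝓝 0] fun x => ‖g (φ x)‖ ^ a)
    (h4 : (fun x => g (φ x)) =O[𝓝 0] fun x => ‖f x‖ ^ b) :
    (α * a * ord g ≤ ord f ∧ β * b * ord f ≤ ord g) ∧
      ((ord g : ℝ) - 1 < α * a * ord g → (ord f : ℝ) - 1 < β * b * ord f → ord f = ord g) := by
  have t1 : Tendsto φ (𝓝 0) (𝓝 0) := by simpa [ContinuousAt, hφ0] using φ.continuousAt h0
  have hT : (0 : Fin N → ℂ) ∈ φ.target := hφ0 ▸ φ.map_source h0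
  have hs0 : φ.symm 0 = 0 := by simpa [hφ0] using φ.left_inv h0
  have t2 : Tendsto φ.symm (𝓝 0) (𝓝 0) := by
    simpa [ContinuousAt, hs0] using φ.continuousAt_symm hT
  have s1 := step hf hg hf0 t1 ha h1 h3
  have s2 := step hg hf hg0 t2 hb h2 ((h4.comp_tendsto t2).congr'
    (by filter_upwards [φ.eventually_right_inverse hT] with y hy using congrArg g hy)
    EventuallyEq.rfl)
  refine ⟨⟨s1, s2⟩, fun k1 k2 => ?_⟩
  have e1 : (ord g : ℝ) < ord f + 1 := by linarith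
  have e2 : (ord f : ℝ) < ord g + 1 := by linarith
  have e3 : ord g < ord f + 1 := by exact_mod_cast e1
  have e4 : ord f < ord g + 1 := by exact_mod_cast e2
  omega

end Vale.Agent.Results.P268.Holder
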